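import Vale.Agent.Lib.P074.Defs
import Vale.Agent.Lib.P074.CubePair
import Vale.Agent.Lib.P074.Numeric
import Vale.Agent.Lib.P074.Third.Admissible

/-!
# P074: `α*_d = 1/3` in every dimension `d ≥ 2`, and the supremum is attained

**Upper bound** (no `α > 1/3` is admissible). On the unit cube take `μ = (1-m) δ_0 + m δ_y`,
`y = θ e_0 + e_1`, `ν = (1-m) δ_0 + m δ_{e_1}` with `m ~ θ` the mass of a tilted cap: the maps
differ by a unit vector on mass `m/2` while `W_2(μ, ν)^2 ≤ m θ^2 ≤ θ^3`.

**Lower bound** (`α = 1/3` is admissible; `Vale.Agent.Lib.P074.Third`). Let `ρ` be uniform on the convex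
body `K`, `φ_μ, φ_ν` the convex potentials of the optimal maps.
1. Translation step: `<v, T_μ x - T_ν x> ≤ u(x+v) - u(x) + [φ_ν(x+v) + φ_ν(x-v) - 2 φ_ν(x)]`, `u = φ_μ - φ_ν`.
   Multiplying by `q = (<e, T_μ - T_ν>)_+` (cut off near the boundary), `v = h e`, and integrating,
   `h ∫ q^2 ≤ ∫ u f dρ + C h^2` with `f = q(· - v) - q`, a bounded function of mean zero, `‖f‖_2 ≤ 2 ‖q‖_2`.
2. Key inequality: `∫ (φ_μ - φ_ν) f dρ ≤ C ‖f‖_{L^2(ρ)} W_2(μ, ν)`. For finitely supported targets with common
   weights, the optimal value for the source `(1 + s f) ρ` is a convex function of the sites whose subgradient is the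
   vector of first moments of the Laguerre cells. The moments for the sources `ρ` and `(1 + s f) ρ` differ by
   `O(s ‖f‖_2)` in the weighted `l^2` norm: the half sum of the two cells of a site lies in the cell for the averaged
   weights, so the Prekopa-Leindler inequality with a Gaussian weight `exp(-κ|x|^2/2)` tilted by a Lipschitz test
   function bounds the displacement of the mean of the test function by the Hellinger defect of the Gaussian masses,
   and for small `κ` the test function `exp(κ|x|^2/2)` closes the estimate.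
3. `h ‖q‖^2 ≤ C ‖q‖ W_2 + C h^2` with `h = W_2^(2/3)` gives `‖T_μ - T_ν‖_2^2 ≤ C W_2^(2/3)`.
General targets are approximated by finitely supported ones with the `W_1^(1/4)` stability estimate.
-/

open MeasureTheory
open scoped ENNReal NNReal

namespace Vale.Agent.Results.P074.A_AlphaStarEqualsOneThird

open Vale.Agent.Lib.P074

/-- every exponent above `1/3` fails to be admissible -/
theorem not_admissible (d : ℕ) (hd : 2 ≤ d) (α : ℝ) (hα : 1 / 3 < α) : ¬ Admissible d α := by
  intro hadm
  obtain ⟨C, hC⟩ := hadm (cube d) isCompact_cube convex_cube interior_cube_nonempty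
    (Metric.closedBall 0 2) (isCompact_closedBall 0 2) ⟨0, by simp⟩
  obtain ⟨θ, h0, h1, hlt⟩ := numeric C α hα
  have hne : (⟨0, by omega⟩ : Fin d) ≠ ⟨1, by omega⟩ := by
    intro h
    simp [Fin.ext_iff] at h
  obtain ⟨μ, ν, Tμ, Tν, hμ, hν, hμY, hνY, hTμ, hTν, hW, hL⟩ :=
    cube_pair (⟨0, by omega⟩ : Fin d) ⟨1, by omega⟩ hne θ h0 h1
  have h := hC μ ν hμ hν hμY hνY Tμ Tν hTμ hTν
  have h2 : (C : ℝ≥0∞) * W2 μ ν ^ α ≤ (C : ℝ≥0∞) * (ENNReal.ofReal (θ ^ 3) ^ (1 / 2 : ℝ)) ^ α := by
    have hα0 : 0 ≤ α := by linarith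
    exact mul_le_mul_right (ENNReal.rpow_le_rpow hW hα0) _
  exact absurd (hL.trans (h.trans h2)) (not_le.mpr hlt)

/-- **Main result.** For every dimension `d ≥ 2`: the exponent `1/3` is admissible, no exponent
`α > 1/3` is admissible (in particular `1/2` is not), hence `α*_d = 1/3` and the supremum defining
`α*_d` is attained. -/
theorem result : ∀ d : ℕ, 2 ≤ d →
    Admissible d (1 / 3) ∧ (∀ α : ℝ, 1 / 3 < α → ¬ Admissible d α) ∧ ¬ Admissible d (1 / 2) ∧
      alphaStar d = 1 / 3 ∧ IsGreatest {α : ℝ | 0 < α ∧ α ≤ 1 ∧ Admissible d α} (1 / 3) := by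
  intro d hd
  have hadm : Admissible d (1 / 3) := Third.admissible_third d
  have hgr : IsGreatest {α : ℝ | 0 < α ∧ α ≤ 1 ∧ Admissible d α} (1 / 3) := by
    refine ⟨⟨by norm_num, by norm_num, hadm⟩, ?_⟩
    rintro α ⟨_, _, hα⟩
    by_contra hcon
    exact not_admissible d hd α (not_le.mp hcon) hα
  exact ⟨hadm, not_admissible d hd, not_admissible d hd (1 / 2) (by norm_num), hgr.csSup_eq, hgr⟩

end Vale.Agent.Results.P074.A_AlphaStarEqualsOneThird
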