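import Vale.Agent.Lib.P074.Defs
import Vale.Agent.Lib.P074.CubePair
import Vale.Agent.Lib.P074.Numeric
import Vale.Agent.Lib.P074.Third.Admissible
import Vale.Agent.Lib.P074.Exist.Mono

/-!
# P074: the sharp stability exponent is `1/3`, stated with Mathlib notions only

Same mathematics as `A_AlphaStarEqualsOneThird`, with every definition written out in the statement:
* the source is `ρ = (volume K)⁻¹ • volume.restrict K`, the uniform probability measure of the convex body `K`;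
* `T` is an optimal map from `ρ` to `μ` if it is Borel, pushes `ρ` to `μ` and minimises `∫ |x - T x|^2 dρ` among such maps;
* `W_2(μ, ν) = (inf over couplings π of ∫ |y - z|^2 dπ)^(1/2)`.
For `α > 0`, the bound `‖T_μ - T_ν‖_{L^2(ρ)} ≤ C(K, Y) W_2(μ, ν)^α` holds for all `K, Y` if and only if `α ≤ 1/3`.
-/

open MeasureTheory
open scoped ENNReal NNReal

namespace Vale.Agent.Results.P074.A_AlphaStarInline

open Vale.Agent.Lib.P074

/-- every exponent above `1/3` fails to be admissible -/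
theorem not_admissible (d : ℕ) (hd : 2 ≤ d) (α : ℝ) (hα : 1 / 3 < α) : ¬ Admissible d α := by
  intro hadm
  obtain ⟨C, hC⟩ := hadm (cube d) isCompact_cube convex_cube interior_cube_nonempty
    (Metric.closedBall 0 2) (isCompact_closedBall 0 2) ⟨0, by simp⟩
  obtain ⟨θ, h0, h1, hlt⟩ := numeric C α hα
  have hne : (⟨0, by omega⟩ : Fin d) ≠ ⟨1, by omega⟩ := by
    intro h
    simp [Fin.ext_iff] at h
  obtain ⟨μ, ν, Tμ, Tν, hμ, hν, hμY, hνY, hTμ, hTν, hW, hL⟩ :=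
    cube_pair (⟨0, by omega⟩ : Fin d) ⟨1, by omega⟩ hne θ h0 h1
  have h := hC μ ν hμ hν hμY hνY Tμ Tν hTμ hTν
  have h2 : (C : ℝ≥0∞) * W2 μ ν ^ α ≤ (C : ℝ≥0∞) * (ENNReal.ofReal (θ ^ 3) ^ (1 / 2 : ℝ)) ^ α := by
    have hα0 : 0 ≤ α := by linarith
    exact mul_le_mul_right (ENNReal.rpow_le_rpow hW hα0) _
  exact absurd (hL.trans (h.trans h2)) (not_le.mpr hlt)

/-- the statement written out below is the admissibility of `α` -/
theorem inline_iff (d : ℕ) (α : ℝ) :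
    (∀ K : Set (EuclideanSpace ℝ (Fin d)), IsCompact K → Convex ℝ K → (interior K).Nonempty →
      ∀ Y : Set (EuclideanSpace ℝ (Fin d)), IsCompact Y → Y.Nonempty →
      ∀ ρ : Measure (EuclideanSpace ℝ (Fin d)), ρ = (volume K)⁻¹ • volume.restrict K →
        ∃ C : ℝ≥0, ∀ (μ : Fin 2 → Measure (EuclideanSpace ℝ (Fin d)))
          (T : Fin 2 → EuclideanSpace ℝ (Fin d) → EuclideanSpace ℝ (Fin d)),
          (∀ i, IsProbabilityMeasure (μ i) ∧ μ i (Y)ᶜ = 0 ∧ Measurable (T i) ∧ ρ.map (T i) = μ i ∧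
            ∀ S, Measurable S → ρ.map S = μ i →
              ∫⁻ x, enorm (x - T i x) ^ 2 ∂ρ ≤ ∫⁻ x, enorm (x - S x) ^ 2 ∂ρ) →
          eLpNorm (fun x => T 0 x - T 1 x) 2 ρ ≤ (C : ℝ≥0∞) *
            ((⨅ π : {π : Measure (EuclideanSpace ℝ (Fin d) × EuclideanSpace ℝ (Fin d)) //
                π.map Prod.fst = μ 0 ∧ π.map Prod.snd = μ 1},
              ∫⁻ p, enorm (p.1 - p.2) ^ 2 ∂π.1) ^ (1 / 2 : ℝ)) ^ α) ↔ Admissible d α := by
  constructor
  · intro h K hK hKc hKi Y hY hYne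
    obtain ⟨C, hC⟩ := h K hK hKc hKi Y hY hYne _ rfl
    refine ⟨C, ?_⟩
    intro μ ν hμp hνp hμ hν Tμ Tν hTμ hTν
    refine hC ![μ, ν] ![Tμ, Tν] ?_
    intro i
    fin_cases i
    · exact ⟨hμp, hμ, hTμ.1, hTμ.2.1, hTμ.2.2⟩
    · exact ⟨hνp, hν, hTν.1, hTν.2.1, hTν.2.2⟩
  · intro h K hK hKc hKi Y hY hYne ρ hρ
    subst hρ
    obtain ⟨C, hC⟩ := h K hK hKc hKi Y hY hYne
    refine ⟨C, ?_⟩
    intro μ T hT
    exact hC (μ 0) (μ 1) (hT 0).1 (hT 1).1 (hT 0).2.1 (hT 1).2.1 (T 0) (T 1)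
      ⟨(hT 0).2.2.1, (hT 0).2.2.2.1, (hT 0).2.2.2.2⟩ ⟨(hT 1).2.2.1, (hT 1).2.2.2.1, (hT 1).2.2.2.2⟩

/-- **Main result**, Mathlib notions only. For every `d ≥ 2` and every real `α > 0`: the stability bound with exponent
`α` holds for all convex bodies `K` and all compact `Y` (with a constant depending on `K, Y`) if and only if `α ≤ 1/3`.
The two targets and their optimal maps are written as families `μ 0, μ 1` and `T 0, T 1`. -/
theorem result : ∀ d : ℕ, 2 ≤ d → ∀ α : ℝ, 0 < α →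
    ((∀ K : Set (EuclideanSpace ℝ (Fin d)), IsCompact K → Convex ℝ K → (interior K).Nonempty →
      ∀ Y : Set (EuclideanSpace ℝ (Fin d)), IsCompact Y → Y.Nonempty →
      ∀ ρ : Measure (EuclideanSpace ℝ (Fin d)), ρ = (volume K)⁻¹ • volume.restrict K →
        ∃ C : ℝ≥0, ∀ (μ : Fin 2 → Measure (EuclideanSpace ℝ (Fin d)))
          (T : Fin 2 → EuclideanSpace ℝ (Fin d) → EuclideanSpace ℝ (Fin d)),
          (∀ i, IsProbabilityMeasure (μ i) ∧ μ i (Y)ᶜ = 0 ∧ Measurable (T i) ∧ ρ.map (T i) = μ i ∧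
            ∀ S, Measurable S → ρ.map S = μ i →
              ∫⁻ x, enorm (x - T i x) ^ 2 ∂ρ ≤ ∫⁻ x, enorm (x - S x) ^ 2 ∂ρ) →
          eLpNorm (fun x => T 0 x - T 1 x) 2 ρ ≤ (C : ℝ≥0∞) *
            ((⨅ π : {π : Measure (EuclideanSpace ℝ (Fin d) × EuclideanSpace ℝ (Fin d)) //
                π.map Prod.fst = μ 0 ∧ π.map Prod.snd = μ 1},
              ∫⁻ p, enorm (p.1 - p.2) ^ 2 ∂π.1) ^ (1 / 2 : ℝ)) ^ α) ↔ α ≤ 1 / 3) := by
  intro d hd α hα
  rw [inline_iff]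
  constructor
  · intro h
    by_contra hcon
    exact not_admissible d hd α (not_le.mp hcon) h
  · intro h
    exact Exist.admissible_mono hα h (Third.admissible_third d)

end Vale.Agent.Results.P074.A_AlphaStarInline
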