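import Vale.Agent.Lib.P074.Defs
import Vale.Agent.Lib.P074.CubePair
import Vale.Agent.Lib.P074.Numeric
import Vale.Agent.Lib.P074.Third.Admissible
import Vale.Agent.Lib.P074.Exist.Main

/-!
# P074: the optimal map exists and is unique, and `α*_d = 1/3` is attained, in every dimension `d ≥ 2`

The statement of `A_AlphaStarEqualsOneThird` (the exponent `1/3` is admissible, no larger exponent is, so
`α*_d = 1/3` and the supremum is attained) together with the fact that makes `T_μ` meaningful: for every convex
body `K`, every compact `Y` and every Borel probability measure `μ` carried by `Y` there is a quadratic optimal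
transport map from the uniform measure of `K` to `μ`, and two such maps agree almost everywhere.  So the stability
bound in the definition of admissibility is never an empty requirement.

Existence (`Vale.Agent.Lib.P074.Exist`): quantise `μ` on finer and finer finite nets of `Y`; finitely supported
targets have maps which are gradients of maxima of affine functions (semi-discrete optimal transport); the
`W_1^(1/4)` stability estimate shows that these maps form a Cauchy sequence in `L^2`; the almost everywhere limit pushes
the source to `μ` (dominated convergence) and is optimal (Kantorovich duality inequality for the approximating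
potentials).  Uniqueness is the stability bound with `ν = μ`.
-/

open MeasureTheory
open scoped ENNReal NNReal

namespace Vale.Agent.Results.P074.A_AlphaStarWithBrenier

open Vale.Agent.Lib.P074

/-- every exponent above `1/3` fails to be admissible -/
theorem not_admissible (d : ℕ) (hd : 2 ≤ d) (α : ℝ) (hα : 1 / 3 < α) : ¬ Admissible d α := by
  intro hadm
  obtain ⟨C, hC⟩ := hadm (cube d) isCompact_cube convex_cube interior_cube_nonempty
    (Metric.closedBall 0 2) (isCompact_closedBall 0 2) ⟨0, by simp⟩
  obtain ⟨θ, h0, h1, hlt⟩ := numeric C α hα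
  have hne : (⟨0, by omega⟩ : Fin d) ≠ ⟨1, by omega⟩ := by
    intro h
    simp [Fin.ext_iff] at h
  obtain ⟨μ, ν, Tμ, Tν, hμ, hν, hμY, hνY, hTμ, hTν, hW, hL⟩ :=
    cube_pair (⟨0, by omega⟩ : Fin d) ⟨1, by omega⟩ hne θ h0 h1
  have h := hC μ ν hμ hν hμY hνY Tμ Tν hTμ hTν
  have h2 : (C : ℝ≥0∞) * W2 μ ν ^ α ≤ (C : ℝ≥0∞) * (ENNReal.ofReal (θ ^ 3) ^ (1 / 2 : ℝ)) ^ α := by
    have hα0 : 0 ≤ α := by linarith
    exact mul_le_mul_right (ENNReal.rpow_le_rpow hW hα0) _
  exact absurd (hL.trans (h.trans h2)) (not_le.mpr hlt)

/-- **Main result.** For every dimension `d ≥ 2`: (1) for every convex body `K`, compact `Y` and Borel probability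
measure `μ` carried by `Y`, a quadratic optimal transport map from `unif K` to `μ` exists and is unique up to
`unif K`-null sets; (2) the exponent `1/3` is admissible, no exponent `α > 1/3` is admissible (in particular `1/2`
is not), hence `α*_d = 1/3` and the supremum defining `α*_d` is attained. -/
theorem result : ∀ d : ℕ, 2 ≤ d →
    (∀ K : Set (E d), IsCompact K → Convex ℝ K → (interior K).Nonempty →
      ∀ Y : Set (E d), IsCompact Y → Y.Nonempty →
        ∀ μ : Measure (E d), IsProbabilityMeasure μ → μ (Y)ᶜ = 0 →
          (∃ T : E d → E d, IsOTMap (unif K) μ T) ∧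
          ∀ T T' : E d → E d, IsOTMap (unif K) μ T → IsOTMap (unif K) μ T' →
            ∀ᵐ x ∂(unif K), T x = T' x) ∧
    Admissible d (1 / 3) ∧ (∀ α : ℝ, 1 / 3 < α → ¬ Admissible d α) ∧ ¬ Admissible d (1 / 2) ∧
      alphaStar d = 1 / 3 ∧ IsGreatest {α : ℝ | 0 < α ∧ α ≤ 1 ∧ Admissible d α} (1 / 3) := by
  intro d hd
  have hadm : Admissible d (1 / 3) := Third.admissible_third d
  have hgr : IsGreatest {α : ℝ | 0 < α ∧ α ≤ 1 ∧ Admissible d α} (1 / 3) := by
    refine ⟨⟨by norm_num, by norm_num, hadm⟩, ?_⟩
    rintro α ⟨_, _, hα⟩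
    by_contra hcon
    exact not_admissible d hd α (not_le.mp hcon) hα
  refine ⟨?_, hadm, not_admissible d hd, not_admissible d hd (1 / 2) (by norm_num),
    hgr.csSup_eq, hgr⟩
  intro K hK hKc hKi Y hY hYne μ hμp hμ
  exact ⟨Exist.exists_isOTMap K hK hKc hKi Y hY hYne μ hμp hμ,
    fun T T' hT hT' => Exist.ae_eq_of_isOTMap K hK hKc hKi Y hY hYne μ hμp hμ T T' hT hT'⟩

end Vale.Agent.Results.P074.A_AlphaStarWithBrenier
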