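import Vale.Agent.Lib.P074.Defs
import Vale.Agent.Lib.P074.CubePair
import Vale.Agent.Lib.P074.Numeric
import Vale.Agent.Lib.P074.StabilityW1
import Vale.Agent.Lib.P074.H8Potential
import Vale.Agent.Lib.P074.H8Wp

/-!
# P074: the stability exponent with respect to `W_1` is exactly `1/4`; `1/4 ≤ α*_d ≤ 1/3`

For every dimension `d ≥ 2`:
* `‖T_μ - T_ν‖_{L^2(ρ)} ≤ C(K, Y) W_1(μ, ν)^(1/4)` holds for all convex bodies `K` and compact `Y`,
  and no exponent `β > 1/4` is admissible with respect to `W_1`: the critical `W_1` exponent is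
  `1/4` and it is attained;
* with respect to `W_2`, the exponent `1/4` is admissible and no exponent `α > 1/3` is, so
  `1/4 ≤ α*_d ≤ 1/3`.
-/

open MeasureTheory
open scoped ENNReal NNReal

namespace Vale.Agent.Results.P074.A_SharpW1

open Vale.Agent.Lib.P074

lemma Wp_one_eq {d : ℕ} (μ ν : Measure (E d)) : Wp 1 μ ν = W1 μ ν := by
  unfold Wp W1
  simp

/-- The stability bound with exponent `1/4`, with respect to `W_1` and to `W_2`. -/
theorem stability_quarter (d : ℕ) (K : Set (E d)) (hK : IsCompact K) (hKc : Convex ℝ K)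
    (hKi : (interior K).Nonempty) (Y : Set (E d)) (hY : IsCompact Y) (hYne : Y.Nonempty) :
    ∃ C : ℝ≥0, ∀ μ ν : Measure (E d), IsProbabilityMeasure μ → IsProbabilityMeasure ν →
      μ (Y)ᶜ = 0 → ν (Y)ᶜ = 0 →
        ∀ Tμ Tν : E d → E d, IsOTMap (unif K) μ Tμ → IsOTMap (unif K) ν Tν →
          eLpNorm (fun x => Tμ x - Tν x) 2 (unif K) ≤ (C : ℝ≥0∞) * W1 μ ν ^ (1 / 4 : ℝ) ∧
          eLpNorm (fun x => Tμ x - Tν x) 2 (unif K) ≤ (C : ℝ≥0∞) * W2 μ ν ^ (1 / 4 : ℝ) := by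
  obtain ⟨RK, hKR⟩ := exists_nnreal_bound hK
  obtain ⟨R, hYR⟩ := exists_nnreal_bound hY
  refine ⟨stabConst K RK R, ?_⟩
  intro μ ν hμp hνp hμ hν Tμ Tν hTμ hTν
  obtain ⟨φ0, -, -, hs0⟩ := exists_potential K Y hK hKc hKi hY hYne R hYR μ hμp hμ Tμ hTμ
  obtain ⟨φ1, -, -, hs1⟩ := exists_potential K Y hK hKc hKi hY hYne R hYR ν hνp hν Tν hTν
  have h := stability_W1 hK hKi hY hKR hYR hμ hν hTμ.1 hTν.1 hTμ.2.1 hTν.2.1 hs0 hs1
  refine ⟨h, h.trans ?_⟩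
  exact mul_le_mul_right (ENNReal.rpow_le_rpow (W1_le_W2 μ ν) (by norm_num)) _

theorem admissible_quarter (d : ℕ) : Admissible d (1 / 4) := by
  intro K hK hKc hKi Y hY hYne
  obtain ⟨C, hC⟩ := stability_quarter d K hK hKc hKi Y hY hYne
  exact ⟨C, fun μ ν hμp hνp hμ hν Tμ Tν hTμ hTν => (hC μ ν hμp hνp hμ hν Tμ Tν hTμ hTν).2⟩

theorem admissibleW1_quarter (d : ℕ) : AdmissibleWp d 1 (1 / 4) := by
  intro K hK hKc hKi Y hY hYne
  obtain ⟨C, hC⟩ := stability_quarter d K hK hKc hKi Y hY hYne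
  refine ⟨C, fun μ ν hμp hνp hμ hν Tμ Tν hTμ hTν => ?_⟩
  rw [Wp_one_eq]
  exact (hC μ ν hμp hνp hμ hν Tμ Tν hTμ hTν).1

/-- no exponent above `p / (2 (p + 1))` is admissible with respect to `W_p` -/
theorem not_admissibleWp (d : ℕ) (hd : 2 ≤ d) (p : ℝ) (hp : 1 ≤ p) (β : ℝ)
    (hβ : p / (2 * (p + 1)) < β) : ¬ AdmissibleWp d p β := by
  intro hadm
  obtain ⟨C, hC⟩ := hadm (cube d) isCompact_cube convex_cube interior_cube_nonempty
    (Metric.closedBall 0 2) (isCompact_closedBall 0 2) ⟨0, by simp⟩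
  obtain ⟨θ, h0, h1, hlt⟩ := numeric_p C p β hp hβ
  have hne : (⟨0, by omega⟩ : Fin d) ≠ ⟨1, by omega⟩ := by
    intro h
    simp [Fin.ext_iff] at h
  obtain ⟨μ, ν, hμ, hν, hμY, hνY, ⟨Tμ, hTμ⟩, ⟨Tν, hTν⟩, hW, hL⟩ :=
    cube_pair_strong_p p hp (⟨0, by omega⟩ : Fin d) ⟨1, by omega⟩ hne θ h0 h1
  have hβ0 : 0 ≤ β := by
    have : 0 < p / (2 * (p + 1)) := by positivity
    linarith
  have h2 : (C : ℝ≥0∞) * Wp p μ ν ^ β
      ≤ (C : ℝ≥0∞) * (ENNReal.ofReal (θ ^ (p + 1)) ^ (1 / p)) ^ β :=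
    mul_le_mul_right (ENNReal.rpow_le_rpow hW hβ0) _
  have h3 := lt_of_le_of_lt h2 (lt_of_lt_of_le hlt (hL Tμ Tν hTμ hTν))
  exact absurd (hC μ ν hμ hν hμY hνY Tμ Tν hTμ hTν) (not_le.mpr h3)

theorem not_admissible (d : ℕ) (hd : 2 ≤ d) (α : ℝ) (hα : 1 / 3 < α) : ¬ Admissible d α := by
  intro hadm
  obtain ⟨C, hC⟩ := hadm (cube d) isCompact_cube convex_cube interior_cube_nonempty
    (Metric.closedBall 0 2) (isCompact_closedBall 0 2) ⟨0, by simp⟩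
  obtain ⟨θ, h0, h1, hlt⟩ := numeric C α hα
  have hne : (⟨0, by omega⟩ : Fin d) ≠ ⟨1, by omega⟩ := by
    intro h
    simp [Fin.ext_iff] at h
  obtain ⟨μ, ν, Tμ, Tν, hμ, hν, hμY, hνY, hTμ, hTν, hW, hL⟩ :=
    cube_pair (⟨0, by omega⟩ : Fin d) ⟨1, by omega⟩ hne θ h0 h1
  have h := hC μ ν hμ hν hμY hνY Tμ Tν hTμ hTν
  have h2 : (C : ℝ≥0∞) * W2 μ ν ^ α ≤ (C : ℝ≥0∞) * (ENNReal.ofReal (θ ^ 3) ^ (1 / 2 : ℝ)) ^ α := by
    have hα0 : 0 ≤ α := by linarith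
    exact mul_le_mul_right (ENNReal.rpow_le_rpow hW hα0) _
  exact absurd (hL.trans (h.trans h2)) (not_le.mpr hlt)

/-- **Main result.** For every dimension `d ≥ 2`: with respect to `W_1` the exponent `1/4` is
admissible and no larger exponent is; with respect to `W_2` the exponent `1/4` is admissible, no
exponent above `1/3` is, and hence `1/4 ≤ α*_d ≤ 1/3`. -/
theorem result : ∀ d : ℕ, 2 ≤ d →
    (AdmissibleWp d 1 (1 / 4) ∧ ∀ β : ℝ, 1 / 4 < β → ¬ AdmissibleWp d 1 β) ∧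
    (Admissible d (1 / 4) ∧ ∀ α : ℝ, 1 / 3 < α → ¬ Admissible d α) ∧
      1 / 4 ≤ alphaStar d ∧ alphaStar d ≤ 1 / 3 := by
  intro d hd
  refine ⟨⟨admissibleW1_quarter d, fun β hβ => ?_⟩,
    ⟨admissible_quarter d, not_admissible d hd⟩, ?_, ?_⟩
  · exact not_admissibleWp d hd 1 le_rfl β (by norm_num; linarith)
  · unfold alphaStar
    apply le_csSup
    · exact ⟨1, fun α hα => hα.2.1⟩
    · exact ⟨by norm_num, by norm_num, admissible_quarter d⟩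
  · unfold alphaStar
    apply Real.sSup_le _ (by norm_num)
    rintro α ⟨_, _, hadm⟩
    by_contra hcon
    exact not_admissible d hd α (not_le.mp hcon) hadm

end Vale.Agent.Results.P074.A_SharpW1
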