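import Vale.Agent.Lib.P074.Defs
import Vale.Agent.Lib.P074.CubePair
import Vale.Agent.Lib.P074.Numeric
import Vale.Agent.Lib.P074.StabilityW1
import Vale.Agent.Lib.P074.H8Potential

/-!
# P074: `1/4 ≤ α*_d ≤ 1/3` in every dimension `d ≥ 2`

**Lower bound** (`α = 1/4` is admissible, even with `W_1` in place of `W_2`).
Every quadratic optimal map `T_μ` from the uniform measure on a convex body is a.e. a subgradient
of a convex Lipschitz potential `φ_μ` (`exists_potential`: cyclical monotonicity by swapping small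
balls, Lebesgue differentiation, Rockafellar). With `ψ_i` the conjugates of the potentials `φ_i`,
for every small vector `v`,
`|<v, T_ν x - T_μ x>| ≤ [φ_0(x+v) + φ_0(x-v) - 2 φ_0(x)] + (ψ_0 - ψ_1)(T_ν x) - (ψ_0 - ψ_1)(T_μ x)`.
The second difference integrates to `O(|v|^2)`, the last bracket to at most `Lip(ψ_0 - ψ_1) W_1(μ, ν)`.
Optimising `|v|` gives `‖T_μ - T_ν‖_{L^1(ρ)} ≤ C W_1^(1/2)`, and the maps are bounded.

**Upper bound** (no `α > 1/3` is admissible). On the unit cube take `μ = (1-m) δ_0 + m δ_y`,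
`y = θ e_0 + e_1`, `ν = (1-m) δ_0 + m δ_{e_1}` with `m ~ θ` the mass of a tilted cap: the maps
differ by a unit vector on mass `m/2` while `W_2(μ, ν)^2 ≤ m θ^2 ≤ θ^3`.
-/

open MeasureTheory
open scoped ENNReal NNReal

namespace Vale.Agent.Results.P074.AlphaStarBetweenQuarterAndThird

open Vale.Agent.Lib.P074

/-- The stability bound with exponent `1/4`, with respect to `W_1` and to `W_2`, for
quadratic optimal transport maps. -/
theorem stability_quarter (d : ℕ) (K : Set (E d)) (hK : IsCompact K) (hKc : Convex ℝ K)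
    (hKi : (interior K).Nonempty) (Y : Set (E d)) (hY : IsCompact Y) (hYne : Y.Nonempty) :
    ∃ C : ℝ≥0, ∀ μ ν : Measure (E d), IsProbabilityMeasure μ → IsProbabilityMeasure ν →
      μ (Y)ᶜ = 0 → ν (Y)ᶜ = 0 →
        ∀ Tμ Tν : E d → E d, IsOTMap (unif K) μ Tμ → IsOTMap (unif K) ν Tν →
          eLpNorm (fun x => Tμ x - Tν x) 2 (unif K) ≤ (C : ℝ≥0∞) * W1 μ ν ^ (1 / 4 : ℝ) ∧
          eLpNorm (fun x => Tμ x - Tν x) 2 (unif K) ≤ (C : ℝ≥0∞) * W2 μ ν ^ (1 / 4 : ℝ) := by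
  obtain ⟨RK, hKR⟩ := exists_nnreal_bound hK
  obtain ⟨R, hYR⟩ := exists_nnreal_bound hY
  refine ⟨stabConst K RK R, ?_⟩
  intro μ ν hμp hνp hμ hν Tμ Tν hTμ hTν
  obtain ⟨φ0, -, -, hs0⟩ := exists_potential K Y hK hKc hKi hY hYne R hYR μ hμp hμ Tμ hTμ
  obtain ⟨φ1, -, -, hs1⟩ := exists_potential K Y hK hKc hKi hY hYne R hYR ν hνp hν Tν hTν
  have h := stability_W1 hK hKi hY hKR hYR hμ hν hTμ.1 hTν.1 hTμ.2.1 hTν.2.1 hs0 hs1
  refine ⟨h, h.trans ?_⟩
  exact mul_le_mul_right (ENNReal.rpow_le_rpow (W1_le_W2 μ ν) (by norm_num)) _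

/-- the exponent `1/4` is admissible in every dimension -/
theorem admissible_quarter (d : ℕ) : Admissible d (1 / 4) := by
  intro K hK hKc hKi Y hY hYne
  obtain ⟨C, hC⟩ := stability_quarter d K hK hKc hKi Y hY hYne
  exact ⟨C, fun μ ν hμp hνp hμ hν Tμ Tν hTμ hTν => (hC μ ν hμp hνp hμ hν Tμ Tν hTμ hTν).2⟩

/-- every exponent above `1/3` fails to be admissible -/
theorem not_admissible (d : ℕ) (hd : 2 ≤ d) (α : ℝ) (hα : 1 / 3 < α) : ¬ Admissible d α := by
  intro hadm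
  obtain ⟨C, hC⟩ := hadm (cube d) isCompact_cube convex_cube interior_cube_nonempty
    (Metric.closedBall 0 2) (isCompact_closedBall 0 2) ⟨0, by simp⟩
  obtain ⟨θ, h0, h1, hlt⟩ := numeric C α hα
  have hne : (⟨0, by omega⟩ : Fin d) ≠ ⟨1, by omega⟩ := by
    intro h
    simp [Fin.ext_iff] at h
  obtain ⟨μ, ν, Tμ, Tν, hμ, hν, hμY, hνY, hTμ, hTν, hW, hL⟩ :=
    cube_pair (⟨0, by omega⟩ : Fin d) ⟨1, by omega⟩ hne θ h0 h1
  have h := hC μ ν hμ hν hμY hνY Tμ Tν hTμ hTν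
  have h2 : (C : ℝ≥0∞) * W2 μ ν ^ α ≤ (C : ℝ≥0∞) * (ENNReal.ofReal (θ ^ 3) ^ (1 / 2 : ℝ)) ^ α := by
    have hα0 : 0 ≤ α := by linarith
    exact mul_le_mul_right (ENNReal.rpow_le_rpow hW hα0) _
  exact absurd (hL.trans (h.trans h2)) (not_le.mpr hlt)

/-- **Main result.** For every dimension `d ≥ 2`: the exponent `1/4` is admissible, no exponent
`α > 1/3` is admissible, and hence `1/4 ≤ α*_d ≤ 1/3`. -/
theorem result : ∀ d : ℕ, 2 ≤ d →
    Admissible d (1 / 4) ∧ (∀ α : ℝ, 1 / 3 < α → ¬ Admissible d α) ∧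
      1 / 4 ≤ alphaStar d ∧ alphaStar d ≤ 1 / 3 := by
  intro d hd
  refine ⟨admissible_quarter d, not_admissible d hd, ?_, ?_⟩
  · unfold alphaStar
    apply le_csSup
    · exact ⟨1, fun α hα => hα.2.1⟩
    · exact ⟨by norm_num, by norm_num, admissible_quarter d⟩
  · unfold alphaStar
    apply Real.sSup_le _ (by norm_num)
    rintro α ⟨_, _, hadm⟩
    by_contra hcon
    exact not_admissible d hd α (not_le.mp hcon) hadm

end Vale.Agent.Results.P074.AlphaStarBetweenQuarterAndThird
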