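import Vale.Agent.Lib.P074.Defs
import Vale.Agent.Lib.P074.CubePair
import Vale.Agent.Lib.P074.Numeric

/-!
# P074: no stability exponent above `1/3` is admissible, in any dimension `d ≥ 2`

Counterexample on the unit cube `K = [0,1]^d`, `Y` the closed ball of radius `2`.
For small `θ > 0` let `μ = (1-m) δ_0 + m δ_y`, `y = θ e_0 + e_1`, where `m` is the mass of the
tilted cap `{θ x_0 + x_1 > 1 + θ/2}` (so `θ/16 ≤ m ≤ θ/2`), and `ν = (1-m) δ_0 + m δ_{e_1}`.
The optimal maps send the tilted cap to `y`, resp. the flat slab `{x_1 > 1-m}` to `e_1`, and the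
rest to `0`. They differ by a vector of norm `1` on a set of mass `m/2`, whereas
`W_2(μ, ν)^2 ≤ m θ^2 ≤ θ^3`. Hence `‖T_μ - T_ν‖ ≥ (θ/32)^(1/2)` and `W_2 ≤ θ^(3/2)`.
-/

open MeasureTheory
open scoped ENNReal NNReal

namespace Vale.Agent.Results.P074.ExponentAtMostOneThird

open Vale.Agent.Lib.P074

/-- every exponent above `1/3` fails to be admissible -/
theorem not_admissible (d : ℕ) (hd : 2 ≤ d) (α : ℝ) (hα : 1 / 3 < α) : ¬ Admissible d α := by
  intro hadm
  obtain ⟨C, hC⟩ := hadm (cube d) isCompact_cube convex_cube interior_cube_nonempty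
    (Metric.closedBall 0 2) (isCompact_closedBall 0 2) ⟨0, by simp⟩
  obtain ⟨θ, h0, h1, hlt⟩ := numeric C α hα
  have hne : (⟨0, by omega⟩ : Fin d) ≠ ⟨1, by omega⟩ := by
    intro h
    simp [Fin.ext_iff] at h
  obtain ⟨μ, ν, Tμ, Tν, hμ, hν, hμY, hνY, hTμ, hTν, hW, hL⟩ :=
    cube_pair (⟨0, by omega⟩ : Fin d) ⟨1, by omega⟩ hne θ h0 h1
  have h := hC μ ν hμ hν hμY hνY Tμ Tν hTμ hTν
  have h2 : (C : ℝ≥0∞) * W2 μ ν ^ α ≤ (C : ℝ≥0∞) * (ENNReal.ofReal (θ ^ 3) ^ (1 / 2 : ℝ)) ^ α := by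
    have hα0 : 0 ≤ α := by linarith
    exact mul_le_mul_right (ENNReal.rpow_le_rpow hW hα0) _
  exact absurd (hL.trans (h.trans h2)) (not_le.mpr hlt)

/-- **Main result.** For every dimension `d ≥ 2`: no exponent `α > 1/3` is admissible; in
particular `α = 1/2` is not admissible, and the critical exponent satisfies `α*_d ≤ 1/3`. -/
theorem result : ∀ d : ℕ, 2 ≤ d →
    (∀ α : ℝ, 1 / 3 < α → ¬ Admissible d α) ∧ ¬ Admissible d (1 / 2) ∧ alphaStar d ≤ 1 / 3 := by
  intro d hd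
  refine ⟨not_admissible d hd, not_admissible d hd (1 / 2) (by norm_num), ?_⟩
  unfold alphaStar
  apply Real.sSup_le _ (by norm_num)
  rintro α ⟨_, _, hadm⟩
  by_contra hcon
  exact not_admissible d hd α (not_le.mp hcon) hadm

end Vale.Agent.Results.P074.ExponentAtMostOneThird
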