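import Vale.Agent.Lib.P074.Defs
import Vale.Agent.Lib.P074.H8Strong
import Vale.Agent.Lib.P074.Numeric

/-!
# P074: exponents above `1/3` fail for every choice of the optimal maps

`Admissible d α` (in `Defs`) asks the stability bound for ALL optimal maps `T_μ`, `T_ν`.
Here `AdmissibleSome d α` asks it only for SOME optimal maps `T_μ`, `T_ν` (which must exist).
As optimal maps are unique up to null sets the two notions describe the same property; the
second is formally the weakest reading, so its failure is the strongest statement.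
We prove that both fail for every `α > 1/3` in every dimension `d ≥ 2`: on the unit cube, for the
two-atom targets of `cube_pair_strong`, optimal maps exist and EVERY pair of optimal maps violates
the bound (equality case of the bathtub principle).
-/

open MeasureTheory
open scoped ENNReal NNReal

namespace Vale.Agent.Results.P074.StrongForm

open Vale.Agent.Lib.P074

/-- `α` is admissible in dimension `d` in the weakest sense: for every compact convex `K` with
nonempty interior and every nonempty compact `Y` there is a finite `C` such that all Borel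
probability measures `μ, ν` carried by `Y` have SOME quadratic optimal transport maps `T_μ, T_ν`
from `unif K` with `‖T_μ - T_ν‖_{L^2(unif K)} ≤ C * W_2(μ, ν)^α`. -/
def AdmissibleSome (d : ℕ) (α : ℝ) : Prop :=
  ∀ K : Set (E d), IsCompact K → Convex ℝ K → (interior K).Nonempty →
    ∀ Y : Set (E d), IsCompact Y → Y.Nonempty →
      ∃ C : ℝ≥0, ∀ μ ν : Measure (E d), IsProbabilityMeasure μ → IsProbabilityMeasure ν →
        μ (Y)ᶜ = 0 → ν (Y)ᶜ = 0 →
          ∃ Tμ Tν : E d → E d, IsOTMap (unif K) μ Tμ ∧ IsOTMap (unif K) ν Tν ∧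
            eLpNorm (fun x => Tμ x - Tν x) 2 (unif K) ≤ (C : ℝ≥0∞) * W2 μ ν ^ α

/-- On the unit cube, for every `α > 1/3` and every constant `C` there are targets carried by the
ball of radius `2` that have optimal maps and for which every pair of optimal maps violates
the bound. -/
theorem violation (d : ℕ) (hd : 2 ≤ d) (α : ℝ) (hα : 1 / 3 < α) (C : ℝ≥0) :
    ∃ μ ν : Measure (E d), IsProbabilityMeasure μ ∧ IsProbabilityMeasure ν ∧
      μ (Metric.closedBall 0 2)ᶜ = 0 ∧ ν (Metric.closedBall 0 2)ᶜ = 0 ∧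
      (∃ T, IsOTMap (unif (cube d)) μ T) ∧ (∃ T, IsOTMap (unif (cube d)) ν T) ∧
      ∀ Tμ Tν : E d → E d, IsOTMap (unif (cube d)) μ Tμ → IsOTMap (unif (cube d)) ν Tν →
        (C : ℝ≥0∞) * W2 μ ν ^ α < eLpNorm (fun x => Tμ x - Tν x) 2 (unif (cube d)) := by
  obtain ⟨θ, h0, h1, hlt⟩ := numeric C α hα
  have hne : (⟨0, by omega⟩ : Fin d) ≠ ⟨1, by omega⟩ := by
    intro h
    simp [Fin.ext_iff] at h
  obtain ⟨μ, ν, hμ, hν, hμY, hνY, hexμ, hexν, hW, hL⟩ :=
    cube_pair_strong (⟨0, by omega⟩ : Fin d) ⟨1, by omega⟩ hne θ h0 h1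
  refine ⟨μ, ν, hμ, hν, hμY, hνY, hexμ, hexν, fun Tμ Tν hTμ hTν => ?_⟩
  have h2 : (C : ℝ≥0∞) * W2 μ ν ^ α ≤ (C : ℝ≥0∞) * (ENNReal.ofReal (θ ^ 3) ^ (1 / 2 : ℝ)) ^ α := by
    have hα0 : 0 ≤ α := by linarith
    exact mul_le_mul_right (ENNReal.rpow_le_rpow hW hα0) _
  exact lt_of_le_of_lt h2 (lt_of_lt_of_le hlt (hL Tμ Tν hTμ hTν))

/-- **Main result.** In every dimension `d ≥ 2` and for every `α > 1/3`, the exponent `α` is not
admissible, whether the bound is asked for some or for all optimal maps. -/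
theorem result : ∀ d : ℕ, 2 ≤ d → ∀ α : ℝ, 1 / 3 < α →
    ¬ AdmissibleSome d α ∧ ¬ Admissible d α := by
  intro d hd α hα
  constructor
  · intro hadm
    obtain ⟨C, hC⟩ := hadm (cube d) isCompact_cube convex_cube interior_cube_nonempty
      (Metric.closedBall 0 2) (isCompact_closedBall 0 2) ⟨0, by simp⟩
    obtain ⟨μ, ν, hμ, hν, hμY, hνY, -, -, hviol⟩ := violation d hd α hα C
    obtain ⟨Tμ, Tν, hTμ, hTν, hle⟩ := hC μ ν hμ hν hμY hνY
    exact absurd hle (not_le.mpr (hviol Tμ Tν hTμ hTν))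
  · intro hadm
    obtain ⟨C, hC⟩ := hadm (cube d) isCompact_cube convex_cube interior_cube_nonempty
      (Metric.closedBall 0 2) (isCompact_closedBall 0 2) ⟨0, by simp⟩
    obtain ⟨μ, ν, hμ, hν, hμY, hνY, ⟨Tμ, hTμ⟩, ⟨Tν, hTν⟩, hviol⟩ := violation d hd α hα C
    exact absurd (hC μ ν hμ hν hμY hνY Tμ Tν hTμ hTν) (not_le.mpr (hviol Tμ Tν hTμ hTν))

end Vale.Agent.Results.P074.StrongForm
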