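import Vale.Agent.Lib.P074.H8Wp

/-!
# P074: stability exponents with respect to `W_p` are at most `p / (2 (p + 1))`

For every `d ≥ 2`, every real `p ≥ 1` and every `β > p / (2 (p + 1))` there is no bound
`‖T_μ - T_ν‖_{L^2(ρ)} ≤ C * W_p(μ, ν)^β` that is uniform over targets in a compact set, already for
the uniform measure on the unit cube. For `p = 2` this is the threshold `1/3`, for `p = 1` it
is `1/4` (the known positive results are stated with `W_1`, with exponent `1/6`).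
-/

open MeasureTheory
open scoped ENNReal NNReal

namespace Vale.Agent.Results.P074.WpExponentBound

open Vale.Agent.Lib.P074

/-- On the unit cube, for every constant `C` there are targets carried by the ball of radius `2`
that have optimal maps and for which every pair of optimal maps violates the `W_p` bound. -/
theorem violation (d : ℕ) (hd : 2 ≤ d) (p : ℝ) (hp : 1 ≤ p) (β : ℝ) (hβ : p / (2 * (p + 1)) < β)
    (C : ℝ≥0) :
    ∃ μ ν : Measure (E d), IsProbabilityMeasure μ ∧ IsProbabilityMeasure ν ∧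
      μ (Metric.closedBall 0 2)ᶜ = 0 ∧ ν (Metric.closedBall 0 2)ᶜ = 0 ∧
      (∃ T, IsOTMap (unif (cube d)) μ T) ∧ (∃ T, IsOTMap (unif (cube d)) ν T) ∧
      ∀ Tμ Tν : E d → E d, IsOTMap (unif (cube d)) μ Tμ → IsOTMap (unif (cube d)) ν Tν →
        (C : ℝ≥0∞) * Wp p μ ν ^ β < eLpNorm (fun x => Tμ x - Tν x) 2 (unif (cube d)) := by
  obtain ⟨θ, h0, h1, hlt⟩ := numeric_p C p β hp hβ
  have hne : (⟨0, by omega⟩ : Fin d) ≠ ⟨1, by omega⟩ := by
    intro h
    simp [Fin.ext_iff] at h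
  obtain ⟨μ, ν, hμ, hν, hμY, hνY, hexμ, hexν, hW, hL⟩ :=
    cube_pair_strong_p p hp (⟨0, by omega⟩ : Fin d) ⟨1, by omega⟩ hne θ h0 h1
  refine ⟨μ, ν, hμ, hν, hμY, hνY, hexμ, hexν, fun Tμ Tν hTμ hTν => ?_⟩
  have hβ0 : 0 ≤ β := by
    have : 0 < p / (2 * (p + 1)) := by positivity
    linarith
  have h2 : (C : ℝ≥0∞) * Wp p μ ν ^ β
      ≤ (C : ℝ≥0∞) * (ENNReal.ofReal (θ ^ (p + 1)) ^ (1 / p)) ^ β :=
    mul_le_mul_right (ENNReal.rpow_le_rpow hW hβ0) _
  exact lt_of_le_of_lt h2 (lt_of_lt_of_le hlt (hL Tμ Tν hTμ hTν))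

/-- **Main result.** In every dimension `d ≥ 2`, for every real `p ≥ 1`, no exponent
`β > p / (2 (p + 1))` is admissible with respect to `W_p`, whether the bound is asked for some or
for all optimal maps. -/
theorem result : ∀ d : ℕ, 2 ≤ d → ∀ p : ℝ, 1 ≤ p → ∀ β : ℝ, p / (2 * (p + 1)) < β →
    ¬ AdmissibleWpSome d p β ∧ ¬ AdmissibleWp d p β := by
  intro d hd p hp β hβ
  constructor
  · intro hadm
    obtain ⟨C, hC⟩ := hadm (cube d) isCompact_cube convex_cube interior_cube_nonempty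
      (Metric.closedBall 0 2) (isCompact_closedBall 0 2) ⟨0, by simp⟩
    obtain ⟨μ, ν, hμ, hν, hμY, hνY, -, -, hviol⟩ := violation d hd p hp β hβ C
    obtain ⟨Tμ, Tν, hTμ, hTν, hle⟩ := hC μ ν hμ hν hμY hνY
    exact absurd hle (not_le.mpr (hviol Tμ Tν hTμ hTν))
  · intro hadm
    obtain ⟨C, hC⟩ := hadm (cube d) isCompact_cube convex_cube interior_cube_nonempty
      (Metric.closedBall 0 2) (isCompact_closedBall 0 2) ⟨0, by simp⟩
    obtain ⟨μ, ν, hμ, hν, hμY, hνY, ⟨Tμ, hTμ⟩, ⟨Tν, hTν⟩, hviol⟩ := violation d hd p hp β hβ C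
    exact absurd (hC μ ν hμ hν hμY hνY Tμ Tν hTμ hTν) (not_le.mpr (hviol Tμ Tν hTμ hTν))

end Vale.Agent.Results.P074.WpExponentBound
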